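import Vale.Agent.P372.FULL.LinkLin
import Vale.Agent.P372.H740.Scale
import Vale.Agent.P372.H399.SN
import Vale.Agent.P372.H507.Socket

/-! The final assembly: the noise is `Fm.isFlip_S`, the operator is `H507.socketE`; the only
hypothesis left is the corner inequality for all numbers of copies. -/

open Matrix Kronecker
open scoped ComplexOrder MatrixOrder

set_option linter.unusedSectionVars false

namespace Vale.Agent.P372.H672

open Vale.Agent.P372.Fm Vale.Agent.P372.H740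

variable {m : ℕ}

/-- The one-copy noise on both systems preserves positivity. -/
theorem T2_psd {X : Matrix (V m × V m) (V m × V m) ℂ} (hX : X.PosSemidef) :
    (T2 m X).PosSemidef := by
  refine ap_psd ?_ hX
  have h1 : (choi (tk m)).PosSemidef := (SF_tk m).choi
  have h2 := hadamard_psd
    (h1.submatrix (fun x : (V m × V m) × (V m × V m) => (x.1.1, x.2.1)))
    (h1.submatrix (fun x : (V m × V m) × (V m × V m) => (x.1.2, x.2.2)))
  exact h2

theorem tpow_psd {A B : Type} [Fintype A] [DecidableEq A] [Fintype B] [DecidableEq B] (n : ℕ)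
    {s : Matrix (A × B) (A × B) ℂ} (hs : s.PosSemidef) : (tpow n s).PosSemidef := by
  have h := (piT_posSemidef (ι := Fin n) fun _ => hs).submatrix
    (fun (p : (Fin n → A) × (Fin n → B)) i => (p.1 i, p.2 i))
  exact h

/-- The operator `2/3 + (1/3) (T ⊗ T) Rh` is positive semidefinite. -/
theorem opR_psd {Rh : Matrix (V m × V m) (V m × V m) ℂ} (h : Rh.PosSemidef) :
    ((2 / 3 : ℂ) • (1 : Matrix (V m × V m) (V m × V m) ℂ) +
      (1 / 3 : ℂ) • T2 m Rh).PosSemidef := by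
  have h3 : (0 : ℂ) ≤ 2 / 3 := by
    have : ((2 / 3 : ℝ) : ℂ) = 2 / 3 := by push_cast; ring
    rw [← this]
    exact_mod_cast (by norm_num : (0 : ℝ) ≤ 2 / 3)
  have h4 : (0 : ℂ) ≤ 1 / 3 := by
    have : ((1 / 3 : ℝ) : ℂ) = 1 / 3 := by push_cast; ring
    rw [← this]
    exact_mod_cast (by norm_num : (0 : ℝ) ≤ 1 / 3)
  exact (PosSemidef.one.smul h3).add ((T2_psd h).smul h4)

/-- **Assembly.** The corner inequality for the noisy operators gives an entangled state with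
distillable key `0`. -/
theorem final (KM : ∀ (m : ℕ) (Rh : Matrix (V m × V m) (V m × V m) ℂ), Rh.PosSemidef →
      ((2 : ℂ) • 1 - Rh).PosSemidef →
      ∀ n, CornerLin (tpow n ((2 / 3 : ℂ) • 1 + (1 / 3 : ℂ) • T2 m Rh))) :
    ∃ (a b : ℕ) (ρ : Matrix (Fin a × Fin b) (Fin a × Fin b) ℂ), ρ.PosSemidef ∧ ρ.trace = 1 ∧
      ¬ IsSep ρ ∧ ∀ (E : Type) [Fintype E] [DecidableEq E] (Ψ : Matrix (Fin a × Fin b) E ℂ),
        Ψ * Ψᴴ = ρ → distillableKey Ψ = 0 := by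
  obtain ⟨m, Rh, h0, h2, hE⟩ := H507.socketE
  have hR := opR_psd h0
  exact FULL.link _ hR hE (noTest_of_corner (fun n => tpow_psd n hR) (KM m Rh h0 h2))

/-- The same from the linear inequality. -/
theorem final_lin (KM : ∀ (m : ℕ) (Rh : Matrix (V m × V m) (V m × V m) ℂ), Rh.PosSemidef →
      ((2 : ℂ) • 1 - Rh).PosSemidef → ∀ (n : ℕ) (X₀ X₁ : Matrix (Fin n → V m) (Fin n → V m) ℂ)
      (Y₀ Y₁ : Matrix (Fin n → V m) (Fin n → V m) ℂ),
      4 * traceNorm ((X₀ ⊗ₖ Y₀) * tpow n ((2 / 3 : ℂ) • 1 + (1 / 3 : ℂ) • T2 m Rh) *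
          (X₁ ⊗ₖ Y₁)ᴴ) ≤
        weight (tpow n ((2 / 3 : ℂ) • 1 + (1 / 3 : ℂ) • T2 m Rh)) X₀ Y₀ +
        weight (tpow n ((2 / 3 : ℂ) • 1 + (1 / 3 : ℂ) • T2 m Rh)) X₀ Y₁ +
        weight (tpow n ((2 / 3 : ℂ) • 1 + (1 / 3 : ℂ) • T2 m Rh)) X₁ Y₀ +
        weight (tpow n ((2 / 3 : ℂ) • 1 + (1 / 3 : ℂ) • T2 m Rh)) X₁ Y₁) :
    ∃ (a b : ℕ) (ρ : Matrix (Fin a × Fin b) (Fin a × Fin b) ℂ), ρ.PosSemidef ∧ ρ.trace = 1 ∧
      ¬ IsSep ρ ∧ ∀ (E : Type) [Fintype E] [DecidableEq E] (Ψ : Matrix (Fin a × Fin b) E ℂ),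
        Ψ * Ψᴴ = ρ → distillableKey Ψ = 0 := by
  obtain ⟨m, Rh, h0, h2, hE⟩ := H507.socketE
  exact FULL.link_lin _ (opR_psd h0) hE (KM m Rh h0 h2)

end Vale.Agent.P372.H672
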