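import Vale.Agent.P372.FULL.Glue
import Vale.Agent.P372.H507.NotSep

/-! The features `z a = pl (fg a)`, the operator `R` and its entanglement. -/

open Matrix Kronecker
open scoped ComplexOrder

set_option linter.unusedSectionVars false

namespace Vale.Agent.P372.FULL

open H897 H405 H507

variable {m : ℕ}

theorem fg_tr (a : Fin m) : (pl (fg a))ᵀ = pl (fg a) := by
  rw [pl_transpose, dotProduct_comm, fg_dot, if_neg (lt_irrefl a), sg_zero, Complex.ofReal_one,
    one_smul]

theorem fg_conj (a : Fin m) : (pl (fg a))ᴴ = pl (fg a) := by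
  ext i j
  rw [conjTranspose_apply, pl_star]
  exact congrFun (congrFun (fg_tr a) i) j

/-- The `m` anticommuting features on `V m`. -/
def clV (m : ℕ) : Cl m (V m) where
  z a := pl (fg a)
  herm a := fg_conj a
  sq a := by
    rw [pl_mul, fg_dot, if_neg (lt_irrefl a), sg_zero, Complex.ofReal_one, one_smul, add_self_G,
      pl_zero]
  anti a b h := by
    rw [pl_mul, pl_mul, fg_dot, fg_dot, add_comm (fg b) (fg a)]
    rcases lt_or_gt_of_ne h with h1 | h1
    · rw [if_neg (not_lt.mpr h1.le), if_pos h1, sg_zero]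
      have : sg 1 = -1 := by simp [sg]
      rw [this]
      simp
    · rw [if_pos h1, if_neg (not_lt.mpr h1.le), sg_zero]
      have : sg 1 = -1 := by simp [sg]
      rw [this]
      simp

section

variable {a b : Type} [Fintype a] [DecidableEq a] [Fintype b] [DecidableEq b]

theorem ap_kron (k : Ker a) (k' : Ker b) (X : Matrix a a ℂ) (Y : Matrix b b ℂ) :
    ap (kt k k') (X ⊗ₖ Y) = ap k X ⊗ₖ ap k' Y := by
  ext i j
  simp only [ap, kt, kroneckerMap_apply, Fintype.sum_prod_type]
  rw [Finset.sum_mul_sum]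
  refine Finset.sum_congr rfl fun p _ => Finset.sum_congr rfl fun p' _ => ?_
  rw [Finset.sum_mul_sum]
  exact Finset.sum_congr rfl fun q _ => Finset.sum_congr rfl fun q' _ => by ring

end

/-- The noise on one copy of both systems. -/
noncomputable def TT (m : ℕ) : Matrix (V m × V m) (V m × V m) ℂ → Matrix (V m × V m) (V m × V m) ℂ :=
  ap (kt (tk m) (tk m))

theorem tk_fg (a : Fin m) : ap (tk m) (pl (fg a)) = (1 / 3 : ℂ) • pl (fg a) := by
  rw [tk_pl, mu_fg]
  norm_num

theorem TT_q (a : Fin m) : TT m ((clV m).q a) = (1 / 9 : ℂ) • (clV m).q a := by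
  have h1 : (clV m).q a = pl (fg a) ⊗ₖ pl (fg a) := by
    rw [Cl.q]
    change pl (fg a) ⊗ₖ (pl (fg a))ᵀ = _
    rw [fg_tr]
  rw [h1, TT, ap_kron, tk_fg, smul_kronecker, kronecker_smul, smul_smul]
  norm_num

theorem good_TT (m : ℕ) : Good (kt (tk m) (tk m)) := (good_tk m).kt (good_tk m)

/-- The entangled operator. -/
noncomputable def RR (m : ℕ) : Matrix (V m × V m) (V m × V m) ℂ :=
  TT m ((clV m).R1 cs sn)

theorem RR_psd (m : ℕ) : (RR m).PosSemidef :=
  ap_psd (good_TT m).sf.choi ((clV m).R1_psd cs sn cs_sn)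

theorem RR_not_sep {m : ℕ} (hm : m = 3600) : ¬ IsSep (RR m) := by
  refine (clV m).not_isSep ⟨1800, by omega⟩ cs sn ?_ (TT m) (good_TT m).dual_trace (good_TT m).one
    TT_q
  rw [hm]
  have h := value_gt
  push_cast
  exact h

end Vale.Agent.P372.FULL
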