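import Vale.Agent.P372.FULL.Link
import Vale.Agent.P372.H672.Zero

/-! From the linear inequality `4 F ≤ w₀₀ + w₀₁ + w₁₀ + w₁₁` (or `2 F ≤ √(w₀₀ w₁₁) + K √(w₀₁ w₁₀)`)
for all numbers of copies and all local filters to a state without distillable key. -/

open Matrix Kronecker Filter Topology
open scoped ComplexOrder MatrixOrder

set_option linter.unusedSectionVars false

namespace Vale.Agent.P372.FULL

variable {A B : Type} [Fintype A] [DecidableEq A] [Fintype B] [DecidableEq B]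

theorem lk_weight {A' B' : Type} [Fintype A'] [DecidableEq A'] [Fintype B'] [DecidableEq B']
    (ρ : Matrix (A × B) (A × B) ℂ) (e : A' ≃ A) (f : B' ≃ B) (X : Matrix A A ℂ)
    (Y : Matrix B B ℂ) :
    weight (ρ.submatrix (e.prodCongr f) (e.prodCongr f)) (X.submatrix e e) (Y.submatrix f f) =
      weight ρ X Y := by
  rw [weight, weight, lk_kr, conjTranspose_submatrix, lk_mul, lk_mul, lk_trace]

theorem lk_norm {A' B' : Type} [Fintype A'] [DecidableEq A'] [Fintype B'] [DecidableEq B']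
    (ρ : Matrix (A × B) (A × B) ℂ) (e : A' ≃ A) (f : B' ≃ B) (X X' : Matrix A A ℂ)
    (Y Y' : Matrix B B ℂ) :
    traceNorm ((X.submatrix e e ⊗ₖ Y.submatrix f f) *
      ρ.submatrix (e.prodCongr f) (e.prodCongr f) * (X'.submatrix e e ⊗ₖ Y'.submatrix f f)ᴴ) =
      traceNorm ((X ⊗ₖ Y) * ρ * (X' ⊗ₖ Y')ᴴ) := by
  rw [lk_kr, lk_kr, conjTranspose_submatrix, lk_mul, lk_mul, lk_tn]

/-- A positive semidefinite operator which is not separable and none of whose multiples has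
distillable key gives a state on `ℂ^a ⊗ ℂ^b` which is not separable and has no distillable key. -/
theorem link_gen (R : Matrix (A × B) (A × B) ℂ) (hR : R.PosSemidef) (hsep : ¬ IsSep R)
    (hz : ∀ (a b : ℕ) (e : Fin a ≃ A) (f : Fin b ≃ B) (c : ℝ), 0 < c →
      ∀ (E : Type) [Fintype E] [DecidableEq E] (Ψ : Matrix (Fin a × Fin b) E ℂ),
        Ψ * Ψᴴ = ((c : ℂ) • R).submatrix (e.prodCongr f) (e.prodCongr f) →
        (Ψ * Ψᴴ).trace = 1 → distillableKey Ψ = 0) :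
    ∃ (a b : ℕ) (ρ : Matrix (Fin a × Fin b) (Fin a × Fin b) ℂ), ρ.PosSemidef ∧ ρ.trace = 1 ∧
      ¬ IsSep ρ ∧ ∀ (E : Type) [Fintype E] [DecidableEq E] (Ψ : Matrix (Fin a × Fin b) E ℂ),
        Ψ * Ψᴴ = ρ → distillableKey Ψ = 0 := by
  have ht0 : R.trace ≠ 0 := by
    intro h
    have h1 : R = 0 := hR.trace_eq_zero_iff.mp h
    refine hsep ⟨0, fun _ => 0, fun _ => 0, fun k => k.elim0, fun k => k.elim0, ?_⟩
    rw [h1]
    simp
  have htn : 0 ≤ R.trace := hR.trace_nonneg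
  obtain ⟨t, ht⟩ : ∃ t : ℝ, R.trace = (t : ℂ) := by
    refine ⟨R.trace.re, ?_⟩
    exact (Complex.eq_re_of_ofReal_le (r := 0) (by simpa using htn))
  have htp : 0 < t := by
    rw [ht] at htn ht0
    have h1 : 0 ≤ t := by exact_mod_cast htn
    exact lt_of_le_of_ne h1 (fun h => ht0 (by rw [← h]; simp))
  have hcp : 0 < t⁻¹ := inv_pos.mpr htp
  set e := (Fintype.equivFin A).symm with he
  set f := (Fintype.equivFin B).symm with hf
  have htr : ((((t⁻¹ : ℝ) : ℂ) • R).submatrix (e.prodCongr f) (e.prodCongr f)).trace = 1 := by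
    rw [lk_trace, trace_smul, ht, smul_eq_mul]
    rw [← Complex.ofReal_mul, inv_mul_cancel₀ htp.ne', Complex.ofReal_one]
  refine ⟨Fintype.card A, Fintype.card B, (((t⁻¹ : ℝ) : ℂ) • R).submatrix (e.prodCongr f)
    (e.prodCongr f), (hR.smul (by exact_mod_cast hcp.le)).submatrix _, htr, ?_, ?_⟩
  · intro h
    have h1 := lk_isSep_smul (lk_isSep e.symm f.symm h) htp.le
    rw [lk_back, smul_smul, ← Complex.ofReal_mul, mul_inv_cancel₀ htp.ne', Complex.ofReal_one,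
      one_smul] at h1
    exact hsep h1
  · intro E _ _ Ψ hΨ
    exact hz _ _ e f t⁻¹ hcp E Ψ hΨ (by rw [hΨ, htr])

/-- The linear inequality is invariant under reindexing and scaling. -/
theorem lk_lin {R : Matrix (A × B) (A × B) ℂ}
    (hineq : ∀ (n : ℕ) (X₀ X₁ : Matrix (Fin n → A) (Fin n → A) ℂ)
      (Y₀ Y₁ : Matrix (Fin n → B) (Fin n → B) ℂ),
      4 * traceNorm ((X₀ ⊗ₖ Y₀) * tpow n R * (X₁ ⊗ₖ Y₁)ᴴ) ≤
        weight (tpow n R) X₀ Y₀ + weight (tpow n R) X₀ Y₁ + weight (tpow n R) X₁ Y₀ +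
          weight (tpow n R) X₁ Y₁)
    {a b : ℕ} (e : Fin a ≃ A) (f : Fin b ≃ B) {c : ℝ} (hc : 0 < c) (n : ℕ)
    (X₀ X₁ : Matrix (Fin n → Fin a) (Fin n → Fin a) ℂ)
    (Y₀ Y₁ : Matrix (Fin n → Fin b) (Fin n → Fin b) ℂ) :
    4 * traceNorm ((X₀ ⊗ₖ Y₀) *
        tpow n (((c : ℂ) • R).submatrix (e.prodCongr f) (e.prodCongr f)) * (X₁ ⊗ₖ Y₁)ᴴ) ≤
      weight (tpow n (((c : ℂ) • R).submatrix (e.prodCongr f) (e.prodCongr f))) X₀ Y₀ +
      weight (tpow n (((c : ℂ) • R).submatrix (e.prodCongr f) (e.prodCongr f))) X₀ Y₁ +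
      weight (tpow n (((c : ℂ) • R).submatrix (e.prodCongr f) (e.prodCongr f))) X₁ Y₀ +
      weight (tpow n (((c : ℂ) • R).submatrix (e.prodCongr f) (e.prodCongr f))) X₁ Y₁ := by
  set ee : (Fin n → Fin a) ≃ (Fin n → A) := Equiv.piCongrRight fun _ => e with hee
  set ff : (Fin n → Fin b) ≃ (Fin n → B) := Equiv.piCongrRight fun _ => f with hff
  have hX : ∀ X : Matrix (Fin n → Fin a) (Fin n → Fin a) ℂ,
      X = (X.submatrix ee.symm ee.symm).submatrix ee ee := by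
    intro X
    rw [submatrix_submatrix, Equiv.symm_comp_self, submatrix_id_id]
  have hY : ∀ Y : Matrix (Fin n → Fin b) (Fin n → Fin b) ℂ,
      Y = (Y.submatrix ff.symm ff.symm).submatrix ff ff := by
    intro Y
    rw [submatrix_submatrix, Equiv.symm_comp_self, submatrix_id_id]
  have hT : tpow n (((c : ℂ) • R).submatrix (e.prodCongr f) (e.prodCongr f)) =
      ((((c ^ n : ℝ)) : ℂ) • tpow n R).submatrix (ee.prodCongr ff) (ee.prodCongr ff) := by
    rw [← lk_submatrix_tpow, lk_tpow_smul]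
    push_cast
    rfl
  rw [hT, hX X₀, hX X₁, hY Y₀, hY Y₁, lk_norm, lk_weight, lk_weight, lk_weight, lk_weight]
  simp only [lk_weight_smul, Matrix.mul_smul, Matrix.smul_mul, traceNorm_smul]
  rw [Complex.norm_real, Real.norm_of_nonneg (pow_nonneg hc.le n)]
  have h1 := hineq n (X₀.submatrix ee.symm ee.symm) (X₁.submatrix ee.symm ee.symm)
    (Y₀.submatrix ff.symm ff.symm) (Y₁.submatrix ff.symm ff.symm)
  have h2 := mul_le_mul_of_nonneg_left h1 (pow_pos hc n).le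
  linarith only [h2]

/-- The final link, from the linear inequality. -/
theorem link_lin (R : Matrix (A × B) (A × B) ℂ) (hR : R.PosSemidef) (hsep : ¬ IsSep R)
    (hineq : ∀ (n : ℕ) (X₀ X₁ : Matrix (Fin n → A) (Fin n → A) ℂ)
      (Y₀ Y₁ : Matrix (Fin n → B) (Fin n → B) ℂ),
      4 * traceNorm ((X₀ ⊗ₖ Y₀) * tpow n R * (X₁ ⊗ₖ Y₁)ᴴ) ≤
        weight (tpow n R) X₀ Y₀ + weight (tpow n R) X₀ Y₁ + weight (tpow n R) X₁ Y₀ +
          weight (tpow n R) X₁ Y₁) :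
    ∃ (a b : ℕ) (ρ : Matrix (Fin a × Fin b) (Fin a × Fin b) ℂ), ρ.PosSemidef ∧ ρ.trace = 1 ∧
      ¬ IsSep ρ ∧ ∀ (E : Type) [Fintype E] [DecidableEq E] (Ψ : Matrix (Fin a × Fin b) E ℂ),
        Ψ * Ψᴴ = ρ → distillableKey Ψ = 0 := by
  refine link_gen R hR hsep fun a b e f c hc E _ _ Ψ hΨ htr => ?_
  refine H672.key_zero_of_lin Ψ htr fun n X₀ X₁ Y₀ Y₁ => ?_
  rw [hΨ]
  exact lk_lin hineq e f hc n X₀ X₁ Y₀ Y₁

end Vale.Agent.P372.FULL
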