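import Vale.Agent.P372.H54.Chain
import Vale.Agent.P372.FULL.Feat
import Vale.Agent.P372.FULL.LinkLin
import Vale.Agent.P372.H740.Scale

/-! The final assembly over `H54.chain_pd`. -/

open Matrix Kronecker Filter Topology
open scoped ComplexOrder MatrixOrder

set_option linter.unusedSectionVars false

namespace Vale.Agent.P372.FULL

open H897

section adapter

variable {a b : Type} [Fintype a] [DecidableEq a] [Fintype b] [DecidableEq b]

/-- Change of the order of the arguments of a kernel. -/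
def k54 (t : H897.Ker a) : H54.Ker a a := fun j j' i i' => t i i' j j'

theorem app_k54 (t : H897.Ker a) (X : Matrix a a ℂ) : H54.app (k54 t) X = ap t X := by
  ext i j
  simp only [H54.app, ap, k54, mul_comm]

theorem isCP_k54 {t : H897.Ker a} (h : (Choi t).PosSemidef) : H54.IsCP (k54 t) := by
  obtain ⟨B, hB⟩ := exists_eq_conjTranspose_mul_self h
  have h1 : k54 t = H54.kraus (fun l : a × a => Matrix.of fun j i => star (B l (i, j))) := by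
    funext j j' i i'
    have h2 := congrFun (congrFun hB (i, j)) (i', j')
    simp only [Choi, Matrix.mul_apply, conjTranspose_apply] at h2
    simp only [k54, H54.kraus, Matrix.of_apply, star_star]
    exact h2
  rw [h1]
  exact H54.isCP_kraus _

theorem dual_k54 {t : H897.Ker a} (h : Good t) (M : Matrix a a ℂ) :
    H54.dual (k54 t) M = ap t M := by
  ext i' i
  simp only [H54.dual, ap, k54]
  rw [Finset.sum_comm]
  refine Finset.sum_congr rfl fun j' _ => Finset.sum_congr rfl fun j _ => ?_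
  rw [h.dual i i' j j']

theorem good_k54 {t : H897.Ker a} (h : Good t) : H54.Good (k54 t) where
  cp := isCP_k54 h.sf.choi
  one := by rw [app_k54, h.one]
  dual_one := by rw [dual_k54 h, h.one]

theorem corner_k54 {t : H897.Ker a} (h : Good t) : H54.Corner (H54.app (k54 t)) := by
  intro θ θ' W hθ hb
  obtain ⟨Z, hZ, hZ1, hZ2⟩ := H405.start h.isFlip hθ hb
  refine ⟨Z, hZ, ?_, ?_⟩
  · rw [app_k54, app_k54]
    exact hZ1
  · intro r
    exact hZ2 r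

end adapter

section filters

variable {A B : Type} [Fintype A] [DecidableEq A] [Fintype B] [DecidableEq B]

/-- The linear inequality for corners of positive definite products. -/
def CornerHalf (Q : Matrix (A × B) (A × B) ℂ) : Prop :=
  ∀ (a₀ a₁ : Matrix A A ℂ) (b₀ b₁ : Matrix B B ℂ) (C : Matrix (A × B) (A × B) ℂ),
    a₀.PosDef → a₁.PosDef → b₀.PosDef → b₁.PosDef →
    (fromBlocks (a₁ ⊗ₖ b₁) C Cᴴ (a₀ ⊗ₖ b₀)).PosSemidef →
    4 * (Q * C).trace.re ≤ (Q * (a₀ ⊗ₖ b₀)).trace.re + (Q * (a₀ ⊗ₖ b₁)).trace.re +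
      (Q * (a₁ ⊗ₖ b₀)).trace.re + (Q * (a₁ ⊗ₖ b₁)).trace.re

theorem half_isUnit {Q : Matrix (A × B) (A × B) ℂ} (h : CornerHalf Q)
    (X₀ X₁ : Matrix A A ℂ) (Y₀ Y₁ : Matrix B B ℂ) (hX₀ : IsUnit X₀) (hX₁ : IsUnit X₁)
    (hY₀ : IsUnit Y₀) (hY₁ : IsUnit Y₁) :
    4 * traceNorm ((X₀ ⊗ₖ Y₀) * Q * (X₁ ⊗ₖ Y₁)ᴴ) ≤
      weight Q X₀ Y₀ + weight Q X₀ Y₁ + weight Q X₁ Y₀ + weight Q X₁ Y₁ := by
  obtain ⟨W, hW, hW1⟩ := traceNorm_exists ((X₀ ⊗ₖ Y₀) * Q * (X₁ ⊗ₖ Y₁)ᴴ)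
  have h1 := H740.contr_corner hW (X₀ ⊗ₖ Y₀) (X₁ ⊗ₖ Y₁)
  have e : ∀ (X : Matrix A A ℂ) (Y : Matrix B B ℂ),
      (X ⊗ₖ Y)ᴴ * (X ⊗ₖ Y) = (Xᴴ * X) ⊗ₖ (Yᴴ * Y) := fun X Y => by
    rw [conjTranspose_kronecker, ← mul_kronecker_mul]
  rw [e, e] at h1
  have h2 := h _ _ _ _ _ (H740.posDef_of_isUnit hX₀) (H740.posDef_of_isUnit hX₁)
    (H740.posDef_of_isUnit hY₀) (H740.posDef_of_isUnit hY₁) h1
  have h3 : (Q * ((X₁ ⊗ₖ Y₁)ᴴ * W * (X₀ ⊗ₖ Y₀))).trace.re =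
      traceNorm ((X₀ ⊗ₖ Y₀) * Q * (X₁ ⊗ₖ Y₁)ᴴ) := by
    have h4 : (Q * ((X₁ ⊗ₖ Y₁)ᴴ * W * (X₀ ⊗ₖ Y₀))).trace =
        (W * ((X₀ ⊗ₖ Y₀) * Q * (X₁ ⊗ₖ Y₁)ᴴ)).trace := by
      rw [← Matrix.mul_assoc, trace_mul_comm, trace_mul_comm W]
      simp only [Matrix.mul_assoc]
    rw [h4, hW1, Complex.ofReal_re]
  rw [h3] at h2
  simp only [Near.weight_eq_trace]
  linarith

theorem half_all {Q : Matrix (A × B) (A × B) ℂ} (h : CornerHalf Q)
    (X₀ X₁ : Matrix A A ℂ) (Y₀ Y₁ : Matrix B B ℂ) :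
    4 * traceNorm ((X₀ ⊗ₖ Y₀) * Q * (X₁ ⊗ₖ Y₁)ᴴ) ≤
      weight Q X₀ Y₀ + weight Q X₀ Y₁ + weight Q X₁ Y₀ + weight Q X₁ Y₁ := by
  have hev := ((H740.eventually_isUnit_add X₀).and (H740.eventually_isUnit_add X₁)).and
    ((H740.eventually_isUnit_add Y₀).and (H740.eventually_isUnit_add Y₁))
  have cA : ∀ X : Matrix A A ℂ, Continuous fun ε : ℝ => X + (ε : ℂ) • (1 : Matrix A A ℂ) :=
    fun X => continuous_const.add (Complex.continuous_ofReal.smul continuous_const)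
  have cB : ∀ X : Matrix B B ℂ, Continuous fun ε : ℝ => X + (ε : ℂ) • (1 : Matrix B B ℂ) :=
    fun X => continuous_const.add (Complex.continuous_ofReal.smul continuous_const)
  have cK : ∀ (X : Matrix A A ℂ) (Y : Matrix B B ℂ),
      Continuous fun ε : ℝ => (X + (ε : ℂ) • (1 : Matrix A A ℂ)) ⊗ₖ
        (Y + (ε : ℂ) • (1 : Matrix B B ℂ)) := fun X Y => by
    refine continuous_matrix fun p q => ?_
    exact ((cA X).matrix_elem _ _).mul ((cB Y).matrix_elem _ _)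
  have cN : ∀ (X X' : Matrix A A ℂ) (Y Y' : Matrix B B ℂ),
      Continuous fun ε : ℝ => ((X + (ε : ℂ) • (1 : Matrix A A ℂ)) ⊗ₖ
        (Y + (ε : ℂ) • (1 : Matrix B B ℂ))) * Q *
        ((X' + (ε : ℂ) • (1 : Matrix A A ℂ)) ⊗ₖ (Y' + (ε : ℂ) • (1 : Matrix B B ℂ)))ᴴ :=
    fun X X' Y Y' => ((cK X Y).matrix_mul continuous_const).matrix_mul
      (cK X' Y').matrix_conjTranspose
  have cW : ∀ (X : Matrix A A ℂ) (Y : Matrix B B ℂ),
      Continuous fun ε : ℝ => weight Q (X + (ε : ℂ) • (1 : Matrix A A ℂ))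
        (Y + (ε : ℂ) • (1 : Matrix B B ℂ)) := fun X Y =>
    Complex.continuous_re.comp (cN X X Y Y).matrix_trace
  have cL : Continuous fun ε : ℝ =>
      4 * traceNorm (((X₀ + (ε : ℂ) • (1 : Matrix A A ℂ)) ⊗ₖ
        (Y₀ + (ε : ℂ) • (1 : Matrix B B ℂ))) * Q *
        ((X₁ + (ε : ℂ) • (1 : Matrix A A ℂ)) ⊗ₖ (Y₁ + (ε : ℂ) • (1 : Matrix B B ℂ)))ᴴ) :=
    continuous_const.mul (continuous_traceNorm.comp (cN X₀ X₁ Y₀ Y₁))
  have cR : Continuous fun ε : ℝ =>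
      weight Q (X₀ + (ε : ℂ) • (1 : Matrix A A ℂ)) (Y₀ + (ε : ℂ) • (1 : Matrix B B ℂ)) +
      weight Q (X₀ + (ε : ℂ) • (1 : Matrix A A ℂ)) (Y₁ + (ε : ℂ) • (1 : Matrix B B ℂ)) +
      weight Q (X₁ + (ε : ℂ) • (1 : Matrix A A ℂ)) (Y₀ + (ε : ℂ) • (1 : Matrix B B ℂ)) +
      weight Q (X₁ + (ε : ℂ) • (1 : Matrix A A ℂ)) (Y₁ + (ε : ℂ) • (1 : Matrix B B ℂ)) :=
    (((cW X₀ Y₀).add (cW X₀ Y₁)).add (cW X₁ Y₀)).add (cW X₁ Y₁)
  have tL := (cL.tendsto 0).mono_left (nhdsWithin_le_nhds (s := {0}ᶜ))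
  have tR := (cR.tendsto 0).mono_left (nhdsWithin_le_nhds (s := {0}ᶜ))
  have h5 := le_of_tendsto_of_tendsto tL tR (by
    filter_upwards [hev] with ε hε
    exact half_isUnit h _ _ _ _ hε.1.1 hε.1.2 hε.2.1 hε.2.2)
  simpa only [Complex.ofReal_zero, zero_smul, add_zero] using h5

end filters

section merge

variable {A B : Type} [Fintype A] [DecidableEq A] [Fintype B] [DecidableEq B]
  [Nonempty A] [Nonempty B]

/-- The merge: the corner inequality for `n` copies. -/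
theorem merge54 {tA : H897.Ker A} {tB : H897.Ker B} (hA : Good tA) (hB : Good tB)
    {V : Matrix (A × B) (A × B) ℂ} (hV : V.PosSemidef) (hV2 : ((2 : ℂ) • 1 - V).PosSemidef)
    {c : ℝ} (hc : 0 < c) (hVt : V.trace = (c : ℂ)) (n : ℕ) :
    CornerHalf (tpow n ((2 / 3 : ℂ) • 1 + (1 / 3 : ℂ) • ap (kt tA tB) V)) := by
  intro a₀ a₁ b₀ b₁ C ha₀ ha₁ hb₀ hb₁ hC
  have hAB : Good (kt tA tB) := hA.kt hB
  have hn : Good (pk (ι := Fin n) (kt tA tB)) := hAB.pk n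
  have ekk : H54.kk (k54 tA) (k54 tB) = k54 (kt tA tB) := rfl
  have ekp : (H54.kp fun _ : Fin n => H54.kk (k54 tA) (k54 tB)) = k54 (pk (ι := Fin n) (kt tA tB)) :=
    rfl
  have hd : H54.dual (H54.kk (k54 tA) (k54 tB)) V = ap (kt tA tB) V := by
    rw [ekk, dual_k54 hAB]
  set e := H54.eN A B n with he
  have hK : (fromBlocks ((a₁ ⊗ₖ b₁).submatrix e e) (C.submatrix e e) (C.submatrix e e)ᴴ
      ((a₀ ⊗ₖ b₀).submatrix e e)).PosSemidef := by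
    have h1 := hC.submatrix (Sum.map e e)
    have h2 : (fromBlocks (a₁ ⊗ₖ b₁) C Cᴴ (a₀ ⊗ₖ b₀)).submatrix (Sum.map e e) (Sum.map e e) =
        fromBlocks ((a₁ ⊗ₖ b₁).submatrix e e) (C.submatrix e e) (C.submatrix e e)ᴴ
          ((a₀ ⊗ₖ b₀).submatrix e e) := by
      ext (i | i) (j | j) <;> rfl
    rwa [h2] at h1
  have h := H54.chain_pd (good_k54 hA) (good_k54 hB) (by rw [ekk, app_k54, hAB.one])
    (by rw [ekk, dual_k54 hAB, hAB.one]) hV hV2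
    (by rw [hd]; exact ap_psd hAB.sf.choi hV) hc hVt n
    (by rw [ekp]; exact corner_k54 hn) ha₀.posSemidef hb₀.posSemidef ha₁ hb₁ hK
  simp only [hd] at h
  have hR : (H54.pm fun _ : Fin n => (2 / 3 : ℂ) • (1 : Matrix (A × B) (A × B) ℂ) +
      (1 / 3 : ℂ) • ap (kt tA tB) V) =
      (tpow n ((2 / 3 : ℂ) • 1 + (1 / 3 : ℂ) • ap (kt tA tB) V)).submatrix e e := by
    ext f g
    rfl
  rw [hR] at h
  have ht : ∀ X : Matrix ((Fin n → A) × (Fin n → B)) ((Fin n → A) × (Fin n → B)) ℂ,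
      ((tpow n ((2 / 3 : ℂ) • 1 + (1 / 3 : ℂ) • ap (kt tA tB) V)).submatrix e e *
        X.submatrix e e).trace =
      (tpow n ((2 / 3 : ℂ) • 1 + (1 / 3 : ℂ) • ap (kt tA tB) V) * X).trace := fun X => by
    rw [lk_mul, lk_trace]
  have h' := h (1 / 2)
  rw [ht, ht, ht, ht, ht] at h'
  linarith only [h']

end merge

/-- **Main theorem**: an entangled state without distillable key. -/
theorem main54 :
    ∃ (a b : ℕ) (ρ : Matrix (Fin a × Fin b) (Fin a × Fin b) ℂ), ρ.PosSemidef ∧ ρ.trace = 1 ∧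
      ¬ IsSep ρ ∧ ∀ (E : Type) [Fintype E] [DecidableEq E] (Ψ : Matrix (Fin a × Fin b) E ℂ),
        Ψ * Ψᴴ = ρ → distillableKey Ψ = 0 := by
  obtain ⟨m, hm⟩ : ∃ m : ℕ, m = 3600 := ⟨_, rfl⟩
  refine link_lin (RR m) (RR_psd m) (RR_not_sep hm) fun n X₀ X₁ Y₀ Y₁ => ?_
  have hR : RR m = (2 / 3 : ℂ) • 1 + (1 / 3 : ℂ) • ap (kt (tk m) (tk m)) ((clV m).Rh H507.cs H507.sn) := by
    have h1 : RR m = apL (kt (tk m) (tk m)) ((clV m).R1 H507.cs H507.sn) := rfl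
    rw [h1, H507.Cl.R1, map_add, map_smul, map_smul]
    simp only [apL_apply]
    rw [(good_TT m).one]
  rw [hR]
  refine half_all (merge54 (good_tk m) (good_tk m) ((clV m).Rh_psd H507.cs H507.sn H507.cs_sn) ?_
    (c := (Fintype.card (V m × V m) : ℝ)) ?_ ?_ n) X₀ X₁ Y₀ Y₁
  · exact (clV m).two_sub_Rh_psd H507.cs H507.sn H507.cs_sn
  · exact_mod_cast Fintype.card_pos
  · rw [(clV m).trace_Rh ⟨1800, by omega⟩]
    push_cast
    rfl

end Vale.Agent.P372.FULL
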