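import Vale.Agent.P372.H897.Cliff
import Vale.Agent.P372.H405.Corner

/-! The noise on `n` copies of both systems satisfies all hypotheses of the corner lemma. -/

open Matrix Kronecker
open scoped ComplexOrder

set_option linter.unusedSectionVars false

namespace Vale.Agent.P372.FULL

open H897 H405

section abstract

variable {a b : Type} [Fintype a] [DecidableEq a] [Fintype b] [DecidableEq b]

/-- The linear map of a kernel. -/
def apL (k : Ker a) : Matrix a a ℂ →ₗ[ℂ] Matrix a a ℂ where
  toFun := ap k
  map_add' X Y := by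
    ext i j
    simp only [ap, Matrix.add_apply, add_mul, Finset.sum_add_distrib]
  map_smul' c X := by
    ext i j
    simp only [ap, Matrix.smul_apply, smul_eq_mul, Finset.mul_sum, RingHom.id_apply, mul_assoc]

@[simp] theorem apL_apply (k : Ker a) (X : Matrix a a ℂ) : apL k X = ap k X := rfl

/-- The symmetries of a kernel and unitality. -/
structure Good (k : Ker a) : Prop where
  sf : SF k
  star : ∀ p q i j, star (k p q i j) = k q p j i
  dual : ∀ p q i j, k j i q p = k p q i j
  one : ap k 1 = 1

theorem Good.dual_trace {k : Ker a} (h : Good k) (X Y : Matrix a a ℂ) :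
    (ap k X * Y).trace = (X * ap k Y).trace := by
  simp only [Matrix.trace, Matrix.diag_apply, Matrix.mul_apply, ap, Finset.sum_mul,
    Finset.mul_sum]
  calc (∑ i, ∑ j, ∑ p, ∑ q, X p q * k p q i j * Y j i)
      = ∑ i, ∑ p, ∑ j, ∑ q, X p q * k p q i j * Y j i :=
        Finset.sum_congr rfl fun _ _ => Finset.sum_comm
    _ = ∑ i, ∑ p, ∑ q, ∑ j, X p q * k p q i j * Y j i :=
        Finset.sum_congr rfl fun _ _ => Finset.sum_congr rfl fun _ _ => Finset.sum_comm
    _ = ∑ p, ∑ i, ∑ q, ∑ j, X p q * k p q i j * Y j i := Finset.sum_comm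
    _ = ∑ p, ∑ q, ∑ i, ∑ j, X p q * k p q i j * Y j i :=
        Finset.sum_congr rfl fun _ _ => Finset.sum_comm
    _ = ∑ p, ∑ q, ∑ j, ∑ i, X p q * k p q i j * Y j i :=
        Finset.sum_congr rfl fun _ _ => Finset.sum_congr rfl fun _ _ => Finset.sum_comm
    _ = _ := by
        refine Finset.sum_congr rfl fun p _ => Finset.sum_congr rfl fun q _ =>
          Finset.sum_congr rfl fun j _ => Finset.sum_congr rfl fun i _ => ?_
        rw [← h.dual p q i j]
        ring

theorem Good.herm {k : Ker a} (h : Good k) (X : Matrix a a ℂ) : ap k Xᴴ = (ap k X)ᴴ := by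
  ext i j
  simp only [ap, conjTranspose_apply, star_sum, star_mul']
  rw [Finset.sum_comm]
  refine Finset.sum_congr rfl fun q _ => Finset.sum_congr rfl fun p _ => ?_
  rw [h.star]

theorem Good.trace {k : Ker a} (h : Good k) (X : Matrix a a ℂ) : (ap k X).trace = X.trace := by
  have h1 := h.dual_trace X 1
  rwa [h.one, Matrix.mul_one, Matrix.mul_one] at h1

/-- The linear map of a good kernel satisfies the hypotheses of the corner lemma. -/
theorem Good.isFlip {k : Ker a} (h : Good k) : IsFlip (apL k) where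
  trace X := h.trace X
  one := h.one
  herm X := h.herm X
  dual X Y := h.dual_trace X Y
  block X C Y hb := by
    have h1 := ap_blocks h.sf.choi hb
    rw [h.herm] at h1
    exact h1
  co Y := h.sf.coSchwarz Y

theorem Good.kt {k : Ker a} {k' : Ker b} (h : Good k) (h' : Good k') : Good (kt k k') where
  sf := h.sf.kt h'.sf
  star p q i j := by simp only [H897.kt, star_mul', h.star, h'.star]
  dual p q i j := by simp only [H897.kt, h.dual p.1 q.1 i.1 j.1, h'.dual p.2 q.2 i.2 j.2]
  one := by
    ext i j
    have h1 := congrFun (congrFun h.one i.1) j.1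
    have h2 := congrFun (congrFun h'.one i.2) j.2
    simp only [ap, Matrix.one_apply, ite_mul, one_mul, zero_mul, Finset.sum_ite_eq,
      Finset.mem_univ, if_true] at h1 h2
    simp only [ap, Matrix.one_apply, ite_mul, one_mul, zero_mul, Finset.sum_ite_eq,
      Finset.mem_univ, if_true, H897.kt, Fintype.sum_prod_type]
    rw [← Finset.sum_mul_sum, h1, h2]
    by_cases e1 : i.1 = j.1
    · by_cases e2 : i.2 = j.2
      · rw [if_pos e1, if_pos e2, if_pos (Prod.ext e1 e2), mul_one]
      · rw [if_neg e2, mul_zero, if_neg fun h => e2 (congrArg Prod.snd h)]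
    · rw [if_neg e1, zero_mul, if_neg fun h => e1 (congrArg Prod.fst h)]

theorem Good.pk {k : Ker a} (h : Good k) (n : ℕ) : Good (pk (ι := Fin n) k) where
  sf := h.sf.pk
  star p q i j := by simp only [H897.pk, star_prod, h.star]
  dual p q i j := by
    simp only [H897.pk]
    exact Finset.prod_congr rfl fun s _ => h.dual _ _ _ _
  one := by
    ext i j
    have h1 : ∀ s, ∑ x, k x x (i s) (j s) = if i s = j s then 1 else 0 := by
      intro s
      have h2 := congrFun (congrFun h.one (i s)) (j s)
      simpa only [ap, Matrix.one_apply, ite_mul, one_mul, zero_mul, Finset.sum_ite_eq,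
        Finset.mem_univ, if_true] using h2
    simp only [ap, Matrix.one_apply, ite_mul, one_mul, zero_mul, Finset.sum_ite_eq,
      Finset.mem_univ, if_true, H897.pk]
    have h3 := Finset.prod_univ_sum (fun _ : Fin n => (Finset.univ : Finset a))
      (fun s x => k x x (i s) (j s))
    rw [Fintype.piFinset_univ] at h3
    rw [← h3]
    simp only [h1]
    by_cases e : i = j
    · subst e
      simp
    · rw [if_neg e]
      obtain ⟨s, hs⟩ := Function.ne_iff.mp e
      exact Finset.prod_eq_zero (Finset.mem_univ s) (if_neg hs)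

theorem Good.rk {k : Ker a} (h : Good k) (e : b ≃ a) : Good (rk e k) where
  sf := h.sf.rk e
  star p q i j := h.star _ _ _ _
  dual p q i j := h.dual _ _ _ _
  one := by
    ext i j
    have h2 := congrFun (congrFun h.one (e i)) (e j)
    simp only [ap, Matrix.one_apply, ite_mul, one_mul, zero_mul, Finset.sum_ite_eq,
      Finset.mem_univ, if_true, EmbeddingLike.apply_eq_iff_eq] at h2
    simp only [ap, Matrix.one_apply, ite_mul, one_mul, zero_mul, Finset.sum_ite_eq,
      Finset.mem_univ, if_true, H897.rk]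
    rw [← h2]
    exact Equiv.sum_comp e (fun x => k x x (e i) (e j))

/-- The identification of the index types. -/
def ei (n : ℕ) (a b : Type) : (Fin n → a) × (Fin n → b) ≃ (Fin n → a × b) where
  toFun p s := (p.1 s, p.2 s)
  invFun f := (fun s => (f s).1, fun s => (f s).2)
  left_inv _ := rfl
  right_inv _ := rfl

/-- The kernel on `n` copies of both systems. -/
def kS (n : ℕ) (k : Ker a) (k' : Ker b) : Ker ((Fin n → a) × (Fin n → b)) :=
  fun p q i j => ∏ s, (k (p.1 s) (q.1 s) (i.1 s) (j.1 s) * k' (p.2 s) (q.2 s) (i.2 s) (j.2 s))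

theorem Good.kS {k : Ker a} {k' : Ker b} (h : Good k) (h' : Good k') (n : ℕ) :
    Good (kS n k k') :=
  ((h.kt h').pk n).rk (ei n a b)

end abstract

section pauli

variable {m : ℕ}

theorem pl_swap (g : V m × V m) (u v : V m) :
    pl g v u = (sg (g.1 ⬝ᵥ g.2) : ℂ) * pl g u v := by
  have h := congrFun (congrFun (pl_transpose g) u) v
  simpa only [Matrix.transpose_apply, Matrix.smul_apply, smul_eq_mul] using h

theorem pl_two (g : V m × V m) (p q i j : V m) : pl g q p * pl g j i = pl g p q * pl g i j := by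
  rw [pl_swap g p q, pl_swap g i j]
  have h : (sg (g.1 ⬝ᵥ g.2) : ℂ) * sg (g.1 ⬝ᵥ g.2) = 1 := by exact_mod_cast sg_mul_self _
  linear_combination (pl g p q * pl g i j) * h

theorem tk_star (p q i j : V m) : star (tk m p q i j) = tk m q p j i := by
  simp only [tk, star_mul', star_sum, pl_star]
  have h1 : star (((2 : ℂ) ^ m)⁻¹) = ((2 : ℂ) ^ m)⁻¹ := by simp
  rw [h1]
  congr 1
  refine Finset.sum_congr rfl fun g _ => ?_
  rw [mul_assoc, mul_assoc, pl_two g p q i j]
  congr 1
  simp

theorem tk_dual (p q i j : V m) : tk m j i q p = tk m p q i j := by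
  simp only [tk]
  congr 1
  refine Finset.sum_congr rfl fun g _ => ?_
  rw [mul_assoc, mul_assoc, mul_comm (pl g j i), pl_two g p q i j]

theorem pl_orth (g h : V m × V m) :
    ∑ p, ∑ q, pl g p q * pl h p q = if g = h then (2 : ℂ) ^ m else 0 := by
  rw [Finset.sum_comm]
  have h1 : ∀ q : V m, ∑ p, pl g p q * pl h p q =
      if g.1 = h.1 then (sg (q ⬝ᵥ (g.2 + h.2)) : ℂ) else 0 := by
    intro q
    rw [Finset.sum_eq_single (q + g.1)]
    · simp only [pl, if_true]
      by_cases e : g.1 = h.1
      · rw [if_pos e, if_pos (by rw [e]), dotProduct_add, sg_add, dotProduct_comm g.2,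
          dotProduct_comm h.2]
        push_cast
        rfl
      · rw [if_neg e, if_neg (fun h' => e (add_left_cancel h')), mul_zero]
    · intro p _ hp
      simp [pl, hp]
    · simp
  simp only [h1]
  by_cases e : g.1 = h.1
  · simp only [if_pos e]
    rw [sum_sg]
    by_cases e2 : g.2 = h.2
    · rw [if_pos (by rw [e2]; exact add_self_V h.2), if_pos (Prod.ext e e2)]
    · rw [if_neg (fun h' => e2 ?_), if_neg (fun h' => e2 (congrArg Prod.snd h'))]
      have h3 := congrArg (· + h.2) h'
      simp only [add_assoc, add_self_V, add_zero, zero_add] at h3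
      exact h3
  · simp only [if_neg e, Finset.sum_const_zero]
    rw [if_neg (fun h' => e (congrArg Prod.fst h'))]

/-- The Pauli matrices are eigenvectors of the noise. -/
theorem tk_pl (h : V m × V m) : ap (tk m) (pl h) = (mu h : ℂ) • pl h := by
  ext i j
  simp only [ap, tk, Matrix.smul_apply, smul_eq_mul, Finset.mul_sum]
  calc (∑ p, ∑ q, ∑ g : V m × V m, pl h p q * (((2 : ℂ) ^ m)⁻¹ * ((mu g : ℂ) * pl g p q * pl g i j)))
      = ∑ p, ∑ g : V m × V m, ∑ q, pl h p q * (((2 : ℂ) ^ m)⁻¹ * ((mu g : ℂ) * pl g p q * pl g i j)) :=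
        Finset.sum_congr rfl fun _ _ => Finset.sum_comm
    _ = ∑ g : V m × V m, ∑ p, ∑ q, pl h p q * (((2 : ℂ) ^ m)⁻¹ * ((mu g : ℂ) * pl g p q * pl g i j)) :=
        Finset.sum_comm
    _ = ∑ g : V m × V m, ((2 : ℂ) ^ m)⁻¹ * (mu g : ℂ) * pl g i j *
          ∑ p, ∑ q, pl g p q * pl h p q := by
        refine Finset.sum_congr rfl fun g _ => ?_
        rw [Finset.mul_sum]
        refine Finset.sum_congr rfl fun p _ => ?_
        rw [Finset.mul_sum]
        exact Finset.sum_congr rfl fun q _ => by ring
    _ = _ := by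
        simp only [pl_orth]
        rw [Finset.sum_eq_single h]
        · rw [if_pos rfl]
          have h2 : ((2 : ℂ) ^ m) ≠ 0 := two_ne
          field_simp
        · intro g _ hg
          rw [if_neg hg, mul_zero]
        · simp

theorem mu_zero : mu (0 : V m × V m) = 1 := by
  simp [mu, wc, pw]

theorem good_tk (m : ℕ) : Good (tk m) where
  sf := SF_tk m
  star := tk_star
  dual := tk_dual
  one := by
    have h := tk_pl (m := m) 0
    rwa [mu_zero, pl_zero, Complex.ofReal_one, one_smul] at h

/-- The label of the feature `a`. -/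
def fg (a : Fin m) : V m × V m := (Pi.single a 1, fun k => if k < a then 1 else 0)

theorem wc_fg (a j : Fin m) : wc (fg a) j = 0 := by
  simp only [wc, fg]
  by_cases h : j < a
  · rw [if_pos h, Finset.sum_eq_single a]
    · rw [Pi.single_eq_same]
      decide
    · intro b _ hb
      exact Pi.single_eq_of_ne hb _
    · intro h'
      exact absurd (Finset.mem_Ioi.mpr h) h'
  · rw [if_neg h, zero_add]
    refine Finset.sum_eq_zero fun b hb => ?_
    refine Pi.single_eq_of_ne ?_ _
    rintro rfl
    exact h (Finset.mem_Ioi.mp hb)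

theorem mu_fg (a : Fin m) : mu (fg a) = 1 / 3 := by
  have h3 : (√3 : ℝ)⁻¹ * (√3)⁻¹ = 1 / 3 := by
    rw [← mul_inv, Real.mul_self_sqrt (by norm_num)]; norm_num
  have h1 : (∑ j, (fg a).1 j) = 1 := by
    simp only [fg]
    rw [Finset.sum_eq_single a]
    · exact Pi.single_eq_same _ _
    · intro b _ hb
      exact Pi.single_eq_of_ne hb _
    · simp
  rw [mu, h1]
  simp only [wc_fg, add_zero]
  rw [Finset.prod_eq_single a]
  · have e1 : pw (1 : ZMod 2) = (√3)⁻¹ := by simp [pw]
    have e0 : pw (0 : ZMod 2) = 1 := by simp [pw]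
    have e2 : (fg a).1 a = 1 := Pi.single_eq_same _ _
    rw [e2, e1, e0, mul_one, h3]
  · intro b _ hb
    have e2 : (fg a).1 b = 0 := Pi.single_eq_of_ne hb _
    rw [e2]
    simp [pw]
  · simp

theorem fg_dot (a b : Fin m) : (fg a).2 ⬝ᵥ (fg b).1 = if b < a then 1 else 0 := by
  simp only [fg, dotProduct]
  rw [Finset.sum_eq_single b]
  · rw [Pi.single_eq_same, mul_one]
  · intro c _ hc
    rw [Pi.single_eq_of_ne hc, mul_zero]
  · simp

end pauli

end Vale.Agent.P372.FULL
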