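import Vale.Agent.P372.Bdl.B1

/-! From the inequality `F^4 ≤ w₀₀ w₀₁ w₁₀ w₁₁` for all numbers of copies and all local filters to
a normalised state on `ℂ^a ⊗ ℂ^b` with distillable key `0`. -/

open Matrix Kronecker Filter Topology
open scoped ComplexOrder MatrixOrder

set_option linter.unusedSectionVars false

namespace Vale.Agent.P372.FULL

section re

variable {A B A' B' : Type} [Fintype A] [DecidableEq A] [Fintype B] [DecidableEq B]
  [Fintype A'] [DecidableEq A'] [Fintype B'] [DecidableEq B']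

theorem lk_tn (e : A' ≃ A) (N : Matrix A A ℂ) : traceNorm (N.submatrix e e) = traceNorm N := by
  refine le_antisymm (Half.traceNorm_submatrix_le e N) ?_
  have h := Half.traceNorm_submatrix_le e.symm (N.submatrix e e)
  rwa [submatrix_submatrix, Equiv.self_comp_symm, submatrix_id_id] at h

theorem lk_trace (e : A' ≃ A) (N : Matrix A A ℂ) : (N.submatrix e e).trace = N.trace := by
  simp only [Matrix.trace, Matrix.diag, submatrix_apply]
  exact e.sum_comp fun x => N x x

theorem lk_kr (e : A' ≃ A) (f : B' ≃ B) (X : Matrix A A ℂ) (Y : Matrix B B ℂ) :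
    X.submatrix e e ⊗ₖ Y.submatrix f f =
      (X ⊗ₖ Y).submatrix (e.prodCongr f) (e.prodCongr f) := by
  ext x y
  rfl

theorem lk_mul (e : A' ≃ A) (X Y : Matrix A A ℂ) :
    X.submatrix e e * Y.submatrix e e = (X * Y).submatrix e e := submatrix_mul_equiv X Y e e e

theorem lk_keyTest {ρ : Matrix (A × B) (A × B) ℂ} (e : A' ≃ A) (f : B' ≃ B)
    (h : KeyTest ρ Set.univ) :
    KeyTest (ρ.submatrix (e.prodCongr f) (e.prodCongr f)) Set.univ := by
  obtain ⟨X₀, -, X₁, -, Y₀, Y₁, h⟩ := h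
  have hp : ∀ (X X' : Matrix A A ℂ) (Y Y' : Matrix B B ℂ),
      (X.submatrix e e ⊗ₖ Y.submatrix f f) * ρ.submatrix (e.prodCongr f) (e.prodCongr f) *
        (X'.submatrix e e ⊗ₖ Y'.submatrix f f)ᴴ =
      ((X ⊗ₖ Y) * ρ * (X' ⊗ₖ Y')ᴴ).submatrix (e.prodCongr f) (e.prodCongr f) := by
    intro X X' Y Y'
    rw [lk_kr, lk_kr, conjTranspose_submatrix, lk_mul, lk_mul]
  have hw : ∀ (X : Matrix A A ℂ) (Y : Matrix B B ℂ),
      weight (ρ.submatrix (e.prodCongr f) (e.prodCongr f)) (X.submatrix e e)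
        (Y.submatrix f f) = weight ρ X Y := by
    intro X Y
    rw [weight, weight, hp, lk_trace]
  refine ⟨X₀.submatrix e e, Set.mem_univ _, X₁.submatrix e e, Set.mem_univ _,
    Y₀.submatrix f f, Y₁.submatrix f f, ?_⟩
  rw [hw, hw, hw, hw, hp, lk_tn]
  exact h

theorem lk_isSep {ρ : Matrix (A × B) (A × B) ℂ} (e : A' ≃ A) (f : B' ≃ B) (h : IsSep ρ) :
    IsSep (ρ.submatrix (e.prodCongr f) (e.prodCongr f)) := by
  obtain ⟨n, M, N, hM, hN, h⟩ := h
  refine ⟨n, fun k => (M k).submatrix e e, fun k => (N k).submatrix f f,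
    fun k => (hM k).submatrix e, fun k => (hN k).submatrix f, ?_⟩
  subst h
  ext x y
  simp only [submatrix_apply, Matrix.sum_apply, kroneckerMap_apply]
  rfl

theorem lk_back (e : A' ≃ A) (f : B' ≃ B) (M : Matrix (A × B) (A × B) ℂ) :
    (M.submatrix (e.prodCongr f) (e.prodCongr f)).submatrix (e.symm.prodCongr f.symm)
      (e.symm.prodCongr f.symm) = M := by
  ext x y
  change M (e (e.symm x.1), f (f.symm x.2)) (e (e.symm y.1), f (f.symm y.2)) = M x y
  rw [e.apply_symm_apply, e.apply_symm_apply, f.apply_symm_apply, f.apply_symm_apply]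

end re

section key

variable {A B E : Type} [Fintype A] [DecidableEq A] [Fintype B] [DecidableEq B] [Fintype E]
  [DecidableEq E]

theorem lk_nonneg (Ψ : Matrix (A × B) E ℂ) (h : (Ψ * Ψᴴ).trace = 1) : 0 ≤ distillableKey Ψ := by
  refine le_sSup ⟨fun _ => 0, fun _ => 0, fun n => ⟨Unit, inferInstance, fun _ _ => 1,
    fun _ _ => 1, ?_, ?_⟩, tendsto_const_nhds, ?_⟩
  · refine LOCC.output (fun _ => 1) (fun _ => 1) (fun _ => PosSemidef.one) ?_
      (fun _ => PosSemidef.one) ?_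
    · simp
    · simp
  · refine ⟨fun _ => eve (copies n Ψ) 1 1, fun _ => eve_posSemidef _ PosSemidef.one PosSemidef.one,
      ?_, ?_⟩
    · simp only [Finset.univ_unique, Finset.sum_singleton]
      rw [trace_eve_one]
      exact trace_copies n Ψ h
    · have h0 : ∀ (k l : Fin 0 → Bool), traceNorm (eve (copies n Ψ) 1 1 -
          if k = l then ((Fintype.card (Fin 0 → Bool) : ℂ)⁻¹) • eve (copies n Ψ) 1 1 else 0) = 0 := by
        intro k l
        rw [if_pos (Subsingleton.elim k l)]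
        have h1 : Fintype.card (Fin 0 → Bool) = 1 := by simp
        rw [h1, Nat.cast_one, inv_one, one_smul, sub_self]
        exact traceNorm_zero
      simp only [h0, Finset.sum_const_zero, le_refl]
  · simp

end key

variable {A B : Type} [Fintype A] [DecidableEq A] [Fintype B] [DecidableEq B]

theorem lk_tpow_smul (n : ℕ) (c : ℂ) (R : Matrix (A × B) (A × B) ℂ) :
    tpow n (c • R) = c ^ n • tpow n R := by
  ext p q
  simp [tpow, Finset.prod_mul_distrib]

theorem lk_weight_smul (c : ℝ) (R : Matrix (A × B) (A × B) ℂ) (X : Matrix A A ℂ)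
    (Y : Matrix B B ℂ) : weight ((c : ℂ) • R) X Y = c * weight R X Y := by
  rw [weight, weight, Matrix.mul_smul, Matrix.smul_mul, trace_smul, smul_eq_mul,
    Complex.re_ofReal_mul]

theorem lk_isSep_smul {R : Matrix (A × B) (A × B) ℂ} (h : IsSep R) {c : ℝ} (hc : 0 ≤ c) :
    IsSep ((c : ℂ) • R) := by
  obtain ⟨n, M, N, hM, hN, h⟩ := h
  refine ⟨n, fun k => (c : ℂ) • M k, N, fun k => (hM k).smul (by exact_mod_cast hc), hN, ?_⟩
  subst h
  simp only [Finset.smul_sum, smul_kronecker]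

theorem lk_submatrix_tpow {A' B' : Type} (n : ℕ) (e : A' ≃ A) (f : B' ≃ B)
    (R : Matrix (A × B) (A × B) ℂ) :
    (tpow n R).submatrix ((Equiv.piCongrRight fun _ => e).prodCongr
      (Equiv.piCongrRight fun _ => f)) ((Equiv.piCongrRight fun _ => e).prodCongr
      (Equiv.piCongrRight fun _ => f)) =
    tpow n (R.submatrix (e.prodCongr f) (e.prodCongr f)) := by
  ext x y
  rfl

/-- A positive semidefinite operator which is not separable and satisfies the inequality for all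
local filters gives a state on `ℂ^a ⊗ ℂ^b` which is not separable and has no distillable key. -/
theorem link (R : Matrix (A × B) (A × B) ℂ) (hR : R.PosSemidef) (hsep : ¬ IsSep R)
    (hineq : ∀ (n : ℕ) (X₀ X₁ : Matrix (Fin n → A) (Fin n → A) ℂ)
      (Y₀ Y₁ : Matrix (Fin n → B) (Fin n → B) ℂ),
      traceNorm ((X₀ ⊗ₖ Y₀) * tpow n R * (X₁ ⊗ₖ Y₁)ᴴ) ^ 4 ≤
        weight (tpow n R) X₀ Y₀ * weight (tpow n R) X₀ Y₁ * weight (tpow n R) X₁ Y₀ *
          weight (tpow n R) X₁ Y₁) :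
    ∃ (a b : ℕ) (ρ : Matrix (Fin a × Fin b) (Fin a × Fin b) ℂ), ρ.PosSemidef ∧ ρ.trace = 1 ∧
      ¬ IsSep ρ ∧ ∀ (E : Type) [Fintype E] [DecidableEq E] (Ψ : Matrix (Fin a × Fin b) E ℂ),
        Ψ * Ψᴴ = ρ → distillableKey Ψ = 0 := by
  have ht0 : R.trace ≠ 0 := by
    intro h
    have h1 : R = 0 := hR.trace_eq_zero_iff.mp h
    refine hsep ⟨0, fun _ => 0, fun _ => 0, fun k => k.elim0, fun k => k.elim0, ?_⟩
    rw [h1]
    simp
  have htn : 0 ≤ R.trace := hR.trace_nonneg
  obtain ⟨t, ht⟩ : ∃ t : ℝ, R.trace = (t : ℂ) := by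
    refine ⟨R.trace.re, ?_⟩
    exact (Complex.eq_re_of_ofReal_le (r := 0) (by simpa using htn))
  have htp : 0 < t := by
    rw [ht] at htn ht0
    have h1 : 0 ≤ t := by exact_mod_cast htn
    exact lt_of_le_of_ne h1 (fun h => ht0 (by rw [← h]; simp))
  have hcp : 0 < t⁻¹ := inv_pos.mpr htp
  have hno : ∀ n, ¬ KeyTest (tpow n (((t⁻¹ : ℝ) : ℂ) • R)) Set.univ := by
    intro n hk
    obtain ⟨X₀, -, X₁, -, Y₀, Y₁, hk⟩ := hk
    have e1 : tpow n (((t⁻¹ : ℝ) : ℂ) • R) = ((((t⁻¹ : ℝ) ^ n : ℝ)) : ℂ) • tpow n R := by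
      rw [lk_tpow_smul]
      push_cast
      rfl
    rw [e1] at hk
    simp only [lk_weight_smul, Matrix.mul_smul, Matrix.smul_mul, traceNorm_smul] at hk
    rw [Complex.norm_real, Real.norm_of_nonneg (pow_nonneg hcp.le n)] at hk
    have h1 := hineq n X₀ X₁ Y₀ Y₁
    have h2 : 0 < (t⁻¹ ^ n) ^ 4 := pow_pos (pow_pos hcp n) 4
    nlinarith [mul_le_mul_of_nonneg_left h1 h2.le]
  set e := (Fintype.equivFin A).symm with he
  set f := (Fintype.equivFin B).symm with hf
  refine ⟨Fintype.card A, Fintype.card B, (((t⁻¹ : ℝ) : ℂ) • R).submatrix (e.prodCongr f)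
    (e.prodCongr f), ?_, ?_, ?_, ?_⟩
  · exact (hR.smul (by exact_mod_cast hcp.le)).submatrix _
  · rw [lk_trace, trace_smul, ht, smul_eq_mul]
    rw [← Complex.ofReal_mul, inv_mul_cancel₀ htp.ne', Complex.ofReal_one]
  · intro h
    have h1 := lk_isSep_smul (lk_isSep e.symm f.symm h) htp.le
    rw [lk_back, smul_smul, ← Complex.ofReal_mul, mul_inv_cancel₀ htp.ne', Complex.ofReal_one,
      one_smul] at h1
    exact hsep h1
  · intro E _ _ Ψ hΨ
    have htr : (Ψ * Ψᴴ).trace = 1 := by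
      rw [hΨ, lk_trace, trace_smul, ht, smul_eq_mul]
      rw [← Complex.ofReal_mul, inv_mul_cancel₀ htp.ne', Complex.ofReal_one]
    refine le_antisymm (not_lt.mp fun hpos => ?_) (lk_nonneg Ψ htr)
    obtain ⟨n, hn⟩ := (keyPos_iff _ _ E Ψ htr).mp hpos
    rw [hΨ] at hn
    have h1 := lk_keyTest (Equiv.piCongrRight fun _ : Fin n => e.symm)
      (Equiv.piCongrRight fun _ : Fin n => f.symm) hn
    rw [lk_submatrix_tpow, lk_back] at h1
    exact hno n h1

end Vale.Agent.P372.FULL
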