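import Vale.Agent.P372.FULL.Link
import Vale.Agent.P372.H740.Scale
import Vale.Agent.P372.H507.Socket
import Vale.Agent.P372.H897.CliffT
import Vale.Agent.P372.H399.SN
import Vale.Agent.P372.Swap.Link2
import Vale.Agent.P372.H536.Merge

open Matrix Kronecker
open scoped ComplexOrder

namespace Vale.Agent.P372.FULL

open Vale.Agent.P372 Vale.Agent.P372.H897

theorem psd_R {A B : Type} [Fintype A] [DecidableEq A] [Fintype B] [DecidableEq B] {t : Ker (A × B)}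
    (ht : SF t) {Rh : Matrix (A × B) (A × B) ℂ} (h0 : Rh.PosSemidef) :
    ((2 / 3 : ℂ) • 1 + (1 / 3 : ℂ) • ap t Rh).PosSemidef := by
  have a : (0 : ℂ) ≤ 2 / 3 := by
    have h : (0 : ℂ) ≤ ((2 / 3 : ℝ) : ℂ) := by exact_mod_cast (by norm_num : (0 : ℝ) ≤ 2 / 3)
    rwa [show ((2 / 3 : ℝ) : ℂ) = 2 / 3 by push_cast; rfl] at h
  have b : (0 : ℂ) ≤ 1 / 3 := by
    have h : (0 : ℂ) ≤ ((1 / 3 : ℝ) : ℂ) := by exact_mod_cast (by norm_num : (0 : ℝ) ≤ 1 / 3)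
    rwa [show ((1 / 3 : ℝ) : ℂ) = 1 / 3 by push_cast; rfl] at h
  exact (PosSemidef.one.smul a).add ((ap_psd ht.choi h0).smul b)

/-- The statement of the merge. -/
def Merge : Prop := ∀ {A B : Type} [Fintype A] [DecidableEq A] [Fintype B] [DecidableEq B]
      [Nonempty A] [Nonempty B]
      {tA : Ker A} {tB : Ker B}, SF tA → SD tA → UN tA → HM tA → SF tB → SD tB → UN tB → HM tB →
      ∀ {Rh : Matrix (A × B) (A × B) ℂ}, Rh.PosSemidef → ((2 : ℂ) • 1 - Rh).PosSemidef →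
      ∀ n : ℕ, H740.CornerLin (tpow n ((2 / 3 : ℂ) • 1 + (1 / 3 : ℂ) • ap (kt tA tB) Rh))

theorem noTest_gen (merge : Merge) {A B : Type} [Fintype A] [DecidableEq A] [Fintype B] [DecidableEq B]
    [Nonempty A] [Nonempty B]
    {tA : Ker A} {tB : Ker B} (hA : SF tA) (hA1 : SD tA) (hA2 : UN tA) (hA3 : HM tA)
    (hB : SF tB) (hB1 : SD tB) (hB2 : UN tB) (hB3 : HM tB) {Rh : Matrix (A × B) (A × B) ℂ}
    (h0 : Rh.PosSemidef) (h2 : ((2 : ℂ) • 1 - Rh).PosSemidef) :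
    H740.NoTest ((2 / 3 : ℂ) • 1 + (1 / 3 : ℂ) • ap (kt tA tB) Rh) :=
  H740.noTest_of_corner (fun n => Swap.tpow_psd n (psd_R (hA.kt hB) h0)) fun n =>
    merge hA hA1 hA2 hA3 hB hB1 hB2 hB3 h0 h2 n


theorem full_m (merge : Merge) {A : Type} [Fintype A] [DecidableEq A] [Nonempty A] {t : Ker A}
    (hA : SF t) (hA1 : SD t) (hA2 : UN t) (hA3 : HM t) {Rh : Matrix (A × A) (A × A) ℂ}
    (h0 : Rh.PosSemidef) (h2 : ((2 : ℂ) • 1 - Rh).PosSemidef)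
    (hs : ¬ IsSep ((2 / 3 : ℂ) • 1 + (1 / 3 : ℂ) • ap (kt t t) Rh)) :
    ∃ (a b : ℕ) (ρ : Matrix (Fin a × Fin b) (Fin a × Fin b) ℂ), ρ.PosSemidef ∧ ρ.trace = 1 ∧
      ¬ IsSep ρ ∧ ∀ (E : Type) [Fintype E] [DecidableEq E] (Ψ : Matrix (Fin a × Fin b) E ℂ),
        Ψ * Ψᴴ = ρ → distillableKey Ψ = 0 :=
  link _ (psd_R (hA.kt hA) h0) hs (noTest_gen merge hA hA1 hA2 hA3 hA hA1 hA2 hA3 h0 h2)

theorem full (merge : Merge) :
    ∃ (a b : ℕ) (ρ : Matrix (Fin a × Fin b) (Fin a × Fin b) ℂ), ρ.PosSemidef ∧ ρ.trace = 1 ∧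
      ¬ IsSep ρ ∧ ∀ (E : Type) [Fintype E] [DecidableEq E] (Ψ : Matrix (Fin a × Fin b) E ℂ),
        Ψ * Ψᴴ = ρ → distillableKey Ψ = 0 := by
  obtain ⟨m, Rh, h0, h2, hs⟩ := H507.socketE'
  rw [Fm.tk_eq] at hs
  exact full_m merge (SF_tk m) SD_tk UN_tk HM_tk h0 h2 hs

/-- The merge, from `H536.merge`. -/
theorem merge_all : Merge := fun hA hA1 hA2 hA3 hB hB1 hB2 hB3 _ h0 h2 n =>
  H536.merge hA hB hA1 hB1 hA2 hB2 hA3 hB3 h0 h2 n

/-- An entangled state whose distillable key is zero. -/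
theorem exists_entangled_zero_key :
    ∃ (a b : ℕ) (ρ : Matrix (Fin a × Fin b) (Fin a × Fin b) ℂ), ρ.PosSemidef ∧ ρ.trace = 1 ∧
      ¬ IsSep ρ ∧ ∀ (E : Type) [Fintype E] [DecidableEq E] (Ψ : Matrix (Fin a × Fin b) E ℂ),
        Ψ * Ψᴴ = ρ → distillableKey Ψ = 0 := full merge_all

end Vale.Agent.P372.FULL
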